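import Vale.Agent.P224.R2.H662.C4d

/-!
Case A: the eigenvalues of the least squares matrix are bounded, the rare part is empty.
-/

namespace Vale.Agent.P224.R2.H255

open MeasureTheory Module Function Set Vale.Agent.P224.R2.H470 Vale.Agent.P224.R2.H728
  Vale.Agent.P224.R2.H662
open scoped RealInnerProductSpace Topology

set_option linter.unusedSectionVars false

section

variable {X : Type*} {E : Type*} [NormedAddCommGroup E] [InnerProductSpace ℝ E]
  [FiniteDimensional ℝ E] [TopologicalSpace X] [MeasurableSpace X] [CompactSpace X] [BorelSpace X]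
  {μ : Measure X} {m : ℕ} {p n : X → E} {ι : Type*} [Fintype ι] [DecidableEq ι]

/-- `|J p|² ≤ Q` pointwise -/
lemma qd_le (h : OneP μ m p n) (b : OrthonormalBasis ι ℝ E) {j : ι → ℝ} {Q : ℝ}
    (hj : ∀ a, j a ^ 2 ≤ Q) (x : X) : qd b j p x ≤ Q := by
  unfold qd
  have h1 : ∑ a, ⟪p x, b a⟫ ^ 2 = 1 := by
    have := b.sum_sq_norm_inner_left (p x)
    rw [h.np] at this
    simpa [Real.norm_eq_abs, sq_abs] using this
  calc ∑ a, j a ^ 2 * ⟪p x, b a⟫ ^ 2 ≤ ∑ a, Q * ⟪p x, b a⟫ ^ 2 :=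
        Finset.sum_le_sum fun a _ => mul_le_mul_of_nonneg_right (hj a) (sq_nonneg _)
    _ = Q := by rw [← Finset.mul_sum, h1, mul_one]

/-- `|N - J p|² ≤ A0` pointwise -/
lemma ad_le_of [IsFiniteMeasure μ] (h : OneP μ m p n) (b : OrthonormalBasis ι ℝ E) {j : ι → ℝ} {Q s A0 : ℝ}
    (hj : ∀ a, j a ^ 2 ≤ Q) (hs : 0 ≤ s) (hQ : Q ≤ s ^ 2) (hA : (1 + s) ^ 2 ≤ A0) (x : X) :
    ad b j p n x ≤ A0 := by
  have h1 := ad_le h b j x
  have h2 := qd_le h b hj x
  have h3 : √(qd b j p x) ≤ s := Real.sqrt_le_iff.2 ⟨hs, h2.trans hQ⟩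
  have h4 := Real.sqrt_nonneg (qd b j p x)
  have h5 : (1 + √(qd b j p x)) ^ 2 ≤ (1 + s) ^ 2 := pow_le_pow_left₀ (by linarith) (by linarith) 2
  linarith

lemma cont_ad (h : OneP μ m p n) (b : OrthonormalBasis ι ℝ E) (j : ι → ℝ) :
    Continuous fun x => ad b j p n x := by
  have cp := h.cp
  have cn := h.cn
  unfold ad
  fun_prop

lemma cont_qd (h : OneP μ m p n) (b : OrthonormalBasis ι ℝ E) (j : ι → ℝ) :
    Continuous fun x => qd b j p x := by
  have cp := h.cp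
  unfold qd
  fun_prop

/-- the triple with an empty rare part -/
theorem caseA_of (h : OneP μ m p n) (b : OrthonormalBasis ι ℝ E) {j : ι → ℝ}
    (hT : T0Data μ m (cob b p) (cob b n)) {Q s A0 : ℝ}
    (hj : ∀ a, j a ^ 2 ≤ Q) (hs : 0 ≤ s) (hQ : Q ≤ s ^ 2) (hA : (1 + s) ^ 2 ≤ A0) :
    ∫ x, max (ad b j p n x - A0) 0 ^ 2 ∂μ = 0
    ∧ ∫ x, ad b j p n x ^ 2 ∂μ ≤ A0 * hh μ (Matrix.diagonal j) (cob b p) (cob b n)
    ∧ ∫ x, qd b j p x * ad b j p n x ∂μ
      ≤ Q * hh μ (Matrix.diagonal j) (cob b p) (cob b n) := by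
  have := hT.prob
  have ca := cont_ad h b j
  have cq := cont_qd h b j
  have e2 : ∫ x, ad b j p n x ∂μ = hh μ (Matrix.diagonal j) (cob b p) (cob b n) := by
    simp only [ad_eq]
    rfl
  refine ⟨?_, ?_, ?_⟩
  · have e : (fun x => max (ad b j p n x - A0) 0 ^ 2) = fun _ => (0 : ℝ) := by
      ext x
      rw [max_eq_right (by linarith [ad_le_of h b hj hs hQ hA x])]
      norm_num
    rw [e, integral_zero]
  · rw [← e2, ← integral_const_mul]
    refine integral_mono (int_of_cont (by fun_prop)) (int_of_cont (by fun_prop)) fun x => ?_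
    change ad b j p n x ^ 2 ≤ A0 * ad b j p n x
    rw [sq]
    exact mul_le_mul_of_nonneg_right (ad_le_of h b hj hs hQ hA x) (ad_nonneg b j x)
  · rw [← e2, ← integral_const_mul]
    refine integral_mono (int_of_cont (by fun_prop)) (int_of_cont (by fun_prop)) fun x => ?_
    exact mul_le_mul_of_nonneg_right (qd_le h b hj x) (ad_nonneg b j x)


/-- the eigenvalue bound: `j² ≤ Q` as soon as `(m+1) ν ≤ Q (1 - ν)` -/
theorem j_le_of {b : OrthonormalBasis ι ℝ E} {j : ι → ℝ}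
    (hT : T0Data μ m (cob b p) (cob b n))
    (hL : LSq μ (Matrix.diagonal j) (cob b p) (cob b n)) {ν Q : ℝ} (hν1 : ν < 1)
    (hν : ∀ a, m2 μ (cob b n) (cob b n) a a ≤ ν) (hQ : (m + 1) * ν ≤ Q * (1 - ν)) (a : ι) :
    j a ^ 2 ≤ Q := by
  have hm : (0 : ℝ) ≤ m := Nat.cast_nonneg m
  have h1 := hT.GP a a
  rw [if_pos rfl] at h1
  have hG : 0 < m2 μ (cob b p) (cob b p) a a := by
    by_contra hc
    push Not at hc
    have := hν a
    nlinarith
  have h2 := j_sq_le hT hm hL a (hν a) hG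
  have h3 : 0 < 1 - ν := by linarith
  exact le_of_mul_le_mul_right (h2.trans hQ) h3

/-- Case A: `ν ≤ 5/m`, `m ≥ 400`: the pointwise triple -/
theorem caseA_400 (h : OneP μ m p n) (b : OrthonormalBasis ι ℝ E) {j : ι → ℝ}
    (hT : T0Data μ m (cob b p) (cob b n))
    (hL : LSq μ (Matrix.diagonal j) (cob b p) (cob b n)) {ν : ℝ} (hm : 400 ≤ m)
    (hν : ∀ a, m2 μ (cob b n) (cob b n) a a ≤ ν) (h1 : ν ≤ 5 / m) :
    ∫ x, max (ad b j p n x - 53 / 5) 0 ^ 2 ∂μ = 0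
    ∧ ∫ x, ad b j p n x ^ 2 ∂μ ≤ 53 / 5 * hh μ (Matrix.diagonal j) (cob b p) (cob b n)
    ∧ ∫ x, qd b j p x * ad b j p n x ∂μ
      ≤ 127 / 25 * hh μ (Matrix.diagonal j) (cob b p) (cob b n) := by
  have hm' : (400 : ℝ) ≤ m := by exact_mod_cast hm
  have hm0 : (0 : ℝ) < m := by linarith
  have k1 : ν * m ≤ 5 := by rwa [le_div_iff₀ hm0] at h1
  have hν80 : ν ≤ 1 / 80 := by
    refine h1.trans ?_
    rw [div_le_div_iff₀ hm0 (by norm_num)]
    linarith
  refine caseA_of h b hT (Q := 127 / 25) (s := 2254 / 1000) (A0 := 53 / 5) (fun a => ?_)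
    (by norm_num) (by norm_num) (by norm_num)
  refine j_le_of hT hL (ν := ν) (by linarith) hν ?_ a
  nlinarith

end

end Vale.Agent.P224.R2.H255
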