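import Vale.Agent.P224.R2.H579.ELaw
import Vale.Agent.P224.R2.H662.JJ

/-!
The Frobenius norm of the deviation from the diagonal weights and the defect.
-/

namespace Vale.Agent.P224.R2.H255

open MeasureTheory Set Filter Function Real Finset Matrix Vale.Agent.P224.R2.H728

set_option linter.unusedSectionVars false

section

variable {ι Ω : Type*} [Fintype ι] [DecidableEq ι] [MeasurableSpace Ω] {μ : Measure Ω}
  {m : ℝ} {x N : ι → Ω → ℝ} {j : ι → ℝ}

/-- the Bessel inequality of the coordinates -/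
theorem fx_sq_le (h : T0Data μ m x N) (hm : 0 ≤ m) {f : Ω → ℝ} (hf : BM f) :
    (m + 1) * ∑ b, (∫ ω, f ω * x b ω ∂μ) ^ 2 ≤ ∫ ω, f ω ^ 2 ∂μ := by
  have := h.prob
  set v : ι → ℝ := fun b => ∫ ω, f ω * x b ω ∂μ with hv
  set g : Ω → ℝ := fun ω => ∑ b, v b * x b ω with hg
  set k : Ω → ℝ := fun ω => ∑ b, v b * N b ω with hk
  have bg : BM g := BM.sum _ fun b _ => (h.bx b).const_mul _
  have e1 : ∫ ω, f ω * g ω ∂μ = ∑ b, v b ^ 2 := by
    have e : ∀ ω, f ω * g ω = ∑ b, v b * (f ω * x b ω) := by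
      intro ω
      simp only [hg, Finset.mul_sum]
      exact Finset.sum_congr rfl fun b _ => by ring
    simp_rw [e]
    rw [integral_finsetSum _ fun b _ => ((hf.mul (h.bx b)).const_mul _).int]
    refine Finset.sum_congr rfl fun b _ => ?_
    rw [integral_const_mul, sq]
  have q : ∀ {y : ι → Ω → ℝ}, (∀ a, BM (y a)) →
      ∫ ω, (∑ b, v b * y b ω) ^ 2 ∂μ = ∑ b, ∑ c, v b * v c * m2 μ y y b c := by
    intro y hy
    have e : ∀ ω, (∑ b, v b * y b ω) ^ 2 = ∑ b, ∑ c, v b * v c * (y b ω * y c ω) := by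
      intro ω
      rw [sq, Finset.sum_mul_sum]
      exact Finset.sum_congr rfl fun b _ => Finset.sum_congr rfl fun c _ => by ring
    simp_rw [e]
    have i1 : ∀ b c, BM (fun ω => v b * v c * (y b ω * y c ω)) := fun b c =>
      ((hy b).mul (hy c)).const_mul _
    rw [integral_finsetSum _ fun b _ => (BM.sum _ fun c _ => i1 b c).int]
    refine Finset.sum_congr rfl fun b _ => ?_
    rw [integral_finsetSum _ fun c _ => (i1 b c).int]
    exact Finset.sum_congr rfl fun c _ => integral_const_mul _ _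
  have e2 : (m + 1) * ∫ ω, g ω ^ 2 ∂μ + ∫ ω, k ω ^ 2 ∂μ = ∑ b, v b ^ 2 := by
    simp only [hg, hk]
    rw [q h.bx, q h.bN, Finset.mul_sum, ← Finset.sum_add_distrib]
    refine Finset.sum_congr rfl fun b _ => ?_
    rw [Finset.mul_sum, ← Finset.sum_add_distrib]
    have e : ∀ c, (m + 1) * (v b * v c * m2 μ x x b c) + v b * v c * m2 μ N N b c
        = if b = c then v b * v c else 0 := by
      intro c
      have hbc := h.GP b c
      by_cases hc : b = c
      · rw [if_pos hc] at hbc ⊢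
        linear_combination (v b * v c) * hbc
      · rw [if_neg hc] at hbc ⊢
        linear_combination (v b * v c) * hbc
    simp_rw [e]
    rw [Finset.sum_ite_eq]
    simp [sq]
  have e3 : 0 ≤ ∫ ω, (f ω - (m + 1) * g ω) ^ 2 ∂μ := integral_nonneg fun ω => sq_nonneg _
  have e4 : ∫ ω, (f ω - (m + 1) * g ω) ^ 2 ∂μ = ∫ ω, f ω ^ 2 ∂μ
      - 2 * (m + 1) * (∫ ω, f ω * g ω ∂μ) + (m + 1) ^ 2 * ∫ ω, g ω ^ 2 ∂μ := by
    rw [← integral_const_mul, ← integral_const_mul,
      ← integral_sub (hf.pow 2).int ((hf.mul bg).const_mul _).int,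
      ← integral_add ((hf.pow 2).sub ((hf.mul bg).const_mul _)).int
        ((bg.pow 2).const_mul _).int]
    refine integral_congr_ae (Eventually.of_forall fun ω => ?_)
    change (f ω - (m + 1) * g ω) ^ 2
      = f ω ^ 2 - 2 * (m + 1) * (f ω * g ω) + (m + 1) ^ 2 * g ω ^ 2
    ring
  have e5 : 0 ≤ ∫ ω, k ω ^ 2 ∂μ := integral_nonneg fun ω => sq_nonneg _
  have e6 : (m + 1) * ((m + 1) * ∫ ω, g ω ^ 2 ∂μ) ≤ (m + 1) * ∑ b, v b ^ 2 :=
    mul_le_mul_of_nonneg_left (by linarith) (by linarith)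
  rw [e4, e1] at e3
  nlinarith

/-- the mixed moments of the defect -/
theorem sum_zx_sq (h : T0Data μ m x N) (hm : 0 ≤ m) (j : ι → ℝ) :
    (m + 1) * ∑ a, ∑ b, m2 μ (zd j x N) x a b ^ 2 ≤ hh μ (Matrix.diagonal j) x N := by
  rw [← h.sum_ss j, Finset.mul_sum]
  refine Finset.sum_le_sum fun a _ => ?_
  have h1 := fx_sq_le h hm (h.bzd j a)
  refine h1.trans (le_of_eq ?_)
  unfold ss m2
  exact integral_congr_ae (Eventually.of_forall fun ω => sq _)

/-- the second moments of the defect -/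
theorem sum_zz_sq (h : T0Data μ m x N) (j : ι → ℝ) :
    ∑ a, ∑ b, m2 μ (zd j x N) (zd j x N) a b ^ 2 ≤ hh μ (Matrix.diagonal j) x N ^ 2 := by
  have := h.prob
  rw [← h.sum_ss j, sq (∑ a, ss μ j x N a), Finset.sum_mul_sum]
  refine Finset.sum_le_sum fun a _ => Finset.sum_le_sum fun b _ => ?_
  have h1 := int_cs (μ := μ) (h.bzd j a) (h.bzd j b)
  have e : ∀ c, ∫ ω, zd j x N c ω ^ 2 ∂μ = ss μ j x N c := fun c => by
    unfold ss m2
    exact integral_congr_ae (Eventually.of_forall fun ω => sq _)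
  rw [e, e] at h1
  exact h1

/-- the off diagonal moments of the normal -/
theorem P_off (h : T0Data μ m x N) (hm : 0 ≤ m) (hL : LSq μ (Matrix.diagonal j) x N) {a b : ι}
    (hab : a ≠ b) :
    m2 μ N N a b * (1 + j a * j b / (m + 1)) = m2 μ (zd j x N) (zd j x N) a b
      + (j b - j a) * m2 μ (zd j x N) x a b := by
  have := h.prob
  have hm1 : m + 1 ≠ 0 := by positivity
  have hLab := hL a b
  rw [ze_diag] at hLab
  have hG := h.GP a b
  rw [if_neg hab] at hG
  have e1 : ∀ a b, m2 μ (zd j x N) x a b = m2 μ N x a b - j a * m2 μ x x a b := by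
    intro a b
    unfold m2
    rw [← integral_const_mul, ← integral_sub ((h.bN a).mul (h.bx b)).int
      (((h.bx a).mul (h.bx b)).const_mul _).int]
    refine integral_congr_ae (Eventually.of_forall fun ω => ?_)
    simp only [zd]
    ring
  have e2 : m2 μ (zd j x N) (zd j x N) a b = m2 μ N N a b - j b * m2 μ N x a b
      - j a * m2 μ N x b a + j a * j b * m2 μ x x a b := by
    unfold m2
    have bN := h.bN
    have bx := h.bx
    rw [← integral_const_mul, ← integral_const_mul, ← integral_const_mul,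
      ← integral_sub ((bN a).mul (bN b)).int (((bN a).mul (bx b)).const_mul _).int,
      ← integral_sub (((bN a).mul (bN b)).sub (((bN a).mul (bx b)).const_mul _)).int
        (((bN b).mul (bx a)).const_mul _).int,
      ← integral_add ((((bN a).mul (bN b)).sub (((bN a).mul (bx b)).const_mul _)).sub
        (((bN b).mul (bx a)).const_mul _)).int (((bx a).mul (bx b)).const_mul _).int]
    refine integral_congr_ae (Eventually.of_forall fun ω => ?_)
    simp only [zd]
    ring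
  rw [e1, e1] at hLab
  rw [e2, e1]
  have hC := h.C_symm a b
  have hGs := h.G_symm a b
  rw [← hC, ← hGs] at hLab
  rw [← hC]
  set P := m2 μ N N a b
  set C := m2 μ N x a b
  set G := m2 μ x x a b
  have e3 : P * (1 + j a * j b / (m + 1)) = P + j a * j b * (P / (m + 1)) := by ring
  have e4 : P / (m + 1) = -G := by
    rw [div_eq_iff hm1]
    linarith
  rw [e3, e4]
  linear_combination (j a) * hLab

/-- the off diagonal part -/
theorem off_le (h : T0Data μ m x N) (hm : 0 ≤ m) (hL : LSq μ (Matrix.diagonal j) x N) {Q : ℝ}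
    (hQ0 : 0 ≤ Q) (hj : ∀ a, j a ^ 2 ≤ Q) (hQm : Q ≤ m + 1) :
    (1 - Q / (m + 1)) ^ 2 * ∑ a, ∑ b, (if a = b then 0 else m2 μ N N a b ^ 2)
      ≤ 6 * hh μ (Matrix.diagonal j) x N ^ 2
        + 24 / 5 * Q * (hh μ (Matrix.diagonal j) x N / (m + 1)) := by
  have hm1 : 0 < m + 1 := by linarith
  have s1 := sum_zz_sq h j
  have s2 : ∑ a, ∑ b, m2 μ (zd j x N) x a b ^ 2 ≤ hh μ (Matrix.diagonal j) x N / (m + 1) := by
    rw [le_div_iff₀ hm1]
    linarith [sum_zx_sq h hm j]
  have key : ∀ a b, (1 - Q / (m + 1)) ^ 2 * (if a = b then 0 else m2 μ N N a b ^ 2)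
      ≤ 6 * m2 μ (zd j x N) (zd j x N) a b ^ 2 + 24 / 5 * Q * m2 μ (zd j x N) x a b ^ 2 := by
    intro a b
    split_ifs with hab
    · rw [mul_zero]
      positivity
    · have e := P_off h hm hL hab
      set P := m2 μ N N a b
      set S := m2 μ (zd j x N) (zd j x N) a b
      set A := m2 μ (zd j x N) x a b
      have k1 : -Q ≤ j a * j b := by
        nlinarith [hj a, hj b, sq_nonneg (j a + j b)]
      have k2 : 1 - Q / (m + 1) ≤ 1 + j a * j b / (m + 1) := by
        have := div_le_div_of_nonneg_right k1 hm1.le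
        rw [neg_div] at this
        linarith
      have k0 : 0 ≤ 1 - Q / (m + 1) := by
        have : Q / (m + 1) ≤ 1 := by rw [div_le_one hm1]; exact hQm
        linarith
      have k3 : (1 - Q / (m + 1)) ^ 2 * P ^ 2 ≤ (P * (1 + j a * j b / (m + 1))) ^ 2 := by
        have := pow_le_pow_left₀ k0 k2 2
        calc (1 - Q / (m + 1)) ^ 2 * P ^ 2 ≤ (1 + j a * j b / (m + 1)) ^ 2 * P ^ 2 :=
              mul_le_mul_of_nonneg_right this (sq_nonneg _)
          _ = _ := by ring
      have k4 : (j b - j a) ^ 2 ≤ 4 * Q := by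
        nlinarith [hj a, hj b, sq_nonneg (j a + j b)]
      have k5 : (S + (j b - j a) * A) ^ 2 ≤ 6 * S ^ 2 + 6 / 5 * ((j b - j a) ^ 2 * A ^ 2) := by
        nlinarith [sq_nonneg (5 * S - (j b - j a) * A)]
      have k6 : (j b - j a) ^ 2 * A ^ 2 ≤ 4 * Q * A ^ 2 :=
        mul_le_mul_of_nonneg_right k4 (sq_nonneg _)
      rw [e] at k3
      linarith
  calc (1 - Q / (m + 1)) ^ 2 * ∑ a, ∑ b, (if a = b then 0 else m2 μ N N a b ^ 2)
      = ∑ a, ∑ b, (1 - Q / (m + 1)) ^ 2 * (if a = b then 0 else m2 μ N N a b ^ 2) := by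
        rw [Finset.mul_sum]
        exact Finset.sum_congr rfl fun a _ => Finset.mul_sum _ _ _
    _ ≤ ∑ a, ∑ b, (6 * m2 μ (zd j x N) (zd j x N) a b ^ 2
          + 24 / 5 * Q * m2 μ (zd j x N) x a b ^ 2) :=
        Finset.sum_le_sum fun a _ => Finset.sum_le_sum fun b _ => key a b
    _ = 6 * ∑ a, ∑ b, m2 μ (zd j x N) (zd j x N) a b ^ 2
          + 24 / 5 * Q * ∑ a, ∑ b, m2 μ (zd j x N) x a b ^ 2 := by
        simp only [Finset.sum_add_distrib, Finset.mul_sum]
    _ ≤ _ := by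
        have := mul_le_mul_of_nonneg_left s2 (by positivity : 0 ≤ 24 / 5 * Q)
        linarith

/-- the diagonal part -/
theorem diag_le (h : T0Data μ m x N) (hm : 0 ≤ m) {ν : ℝ} (hν : ∀ a, m2 μ N N a a ≤ ν) :
    (m + 1) ^ 2 * ∑ a, dd μ x N a ^ 2 ≤ (m + 2) * ((m + 2) * ν - 1) := by
  have e : ∀ a, (m + 1) ^ 2 * dd μ x N a ^ 2
      = (m + 2) ^ 2 * m2 μ N N a a ^ 2 - 2 * (m + 2) * m2 μ N N a a + 1 := by
    intro a
    have h1 := h.P_eq a
    have h2 : (m + 1) * dd μ x N a = (m + 2) * m2 μ N N a a - 1 := by linarith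
    calc (m + 1) ^ 2 * dd μ x N a ^ 2 = ((m + 1) * dd μ x N a) ^ 2 := by ring
      _ = _ := by rw [h2]; ring
  have h0 : ∀ a, 0 ≤ m2 μ N N a a := fun a => integral_nonneg fun ω => mul_self_nonneg _
  have hs : ∑ a, m2 μ N N a a ^ 2 ≤ ν := by
    calc ∑ a, m2 μ N N a a ^ 2 ≤ ∑ a, ν * m2 μ N N a a :=
          Finset.sum_le_sum fun a _ => by
            rw [sq]
            exact mul_le_mul_of_nonneg_right (hν a) (h0 a)
      _ = ν := by rw [← Finset.mul_sum, h.trP, mul_one]
  rw [Finset.mul_sum]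
  simp_rw [e]
  rw [Finset.sum_add_distrib, Finset.sum_sub_distrib, ← Finset.mul_sum, ← Finset.mul_sum, h.trP,
    Finset.sum_const, nsmul_eq_mul, mul_one, mul_one]
  have hc : ((Finset.univ : Finset ι).card : ℝ) = m + 2 := by
    rw [← h.card]
    rfl
  rw [hc]
  have := mul_le_mul_of_nonneg_left hs (sq_nonneg (m + 2))
  linarith

/-- the Frobenius norm of the deviation: diagonal and off diagonal parts -/
theorem fro_split (h : T0Data μ m x N) (hm : 0 ≤ m) :
    (m + 1) ^ 2 * fro (De μ x N) = (m + 1) ^ 2 * ∑ a, dd μ x N a ^ 2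
      + (m + 2) ^ 2 * ∑ a, ∑ b, (if a = b then 0 else m2 μ N N a b ^ 2) := by
  have hm1 : 0 < m + 1 := by linarith
  unfold fro
  rw [Finset.mul_sum, Finset.mul_sum, Finset.mul_sum, ← Finset.sum_add_distrib]
  refine Finset.sum_congr rfl fun a _ => ?_
  rw [Finset.mul_sum, Finset.mul_sum]
  have e : ∀ b, (m + 1) ^ 2 * De μ x N a b ^ 2 = (if a = b then (m + 1) ^ 2 * dd μ x N a ^ 2 else 0)
      + (m + 2) ^ 2 * (if a = b then 0 else m2 μ N N a b ^ 2) := by
    intro b
    by_cases hab : a = b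
    · subst hab
      rw [if_pos rfl, if_pos rfl, mul_zero, add_zero]
      rfl
    · rw [if_neg hab, if_neg hab, zero_add]
      have hG := h.GP a b
      rw [if_neg hab] at hG
      have e1 : (m + 1) * De μ x N a b = (m + 2) * m2 μ N N a b := by
        have e0 : De μ x N a b = m2 μ N N a b - m2 μ x x a b := rfl
        rw [e0]
        linarith
      calc (m + 1) ^ 2 * De μ x N a b ^ 2 = ((m + 1) * De μ x N a b) ^ 2 := by ring
        _ = _ := by rw [e1]; ring
  rw [Finset.sum_congr rfl fun b _ => e b, Finset.sum_add_distrib, Finset.sum_ite_eq]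
  simp

/-- **Case A**: the Frobenius norm of the deviation -/
theorem fro_A (h : T0Data μ m x N) (hm : 400 ≤ m) (hL : LSq μ (Matrix.diagonal j) x N) {ν : ℝ}
    (hν : ∀ a, m2 μ N N a a ≤ ν) (h5 : m * ν ≤ 5) (hj : ∀ a, j a ^ 2 ≤ 127 / 25)
    (hH : hh μ (Matrix.diagonal j) x N ≤ 1 / 500) : fro (De μ x N) ≤ (51 / 500) ^ 2 := by
  have hm0 : (0 : ℝ) ≤ m := by linarith
  have hm1 : 0 < m + 1 := by linarith
  have h1 := diag_le h hm0 hν
  have h2 := off_le h hm0 hL (Q := 127 / 25) (by norm_num) hj (by linarith)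
  have h3 := fro_split h hm0
  have hh0 := h.hh_nonneg (Matrix.diagonal j)
  set H := hh μ (Matrix.diagonal j) x N with hHd
  set O := ∑ a, ∑ b, (if a = b then 0 else m2 μ N N a b ^ 2) with hO
  have hO0 : 0 ≤ O := Finset.sum_nonneg fun a _ => Finset.sum_nonneg fun b _ => by
    split_ifs
    · exact le_rfl
    · exact sq_nonneg _
  have h4 : H ^ 2 ≤ 1 / 250000 := by nlinarith
  have h5' : H / (m + 1) ≤ 1 / 500 / 401 :=
    div_le_div₀ (by norm_num) hH (by norm_num) (by linarith)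
  have h6 : 987 / 1000 ≤ 1 - 127 / 25 / (m + 1) := by
    have : 127 / 25 / (m + 1) ≤ (127 / 25) / 401 :=
      div_le_div_of_nonneg_left (by norm_num) (by norm_num) (by linarith)
    have h7 : (127 / 25 : ℝ) / 401 ≤ 13 / 1000 := by norm_num
    linarith
  have h8 : (987 / 1000) ^ 2 * O ≤ (1 - 127 / 25 / (m + 1)) ^ 2 * O :=
    mul_le_mul_of_nonneg_right (pow_le_pow_left₀ (by norm_num) h6 2) hO0
  have h9 : O ≤ 15 / 100000 := by
    have : (987 / 1000) ^ 2 * O ≤ 6 * (1 / 250000) + 24 / 5 * (127 / 25) * (1 / 500 / 401) := by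
      linarith
    norm_num at this
    linarith
  have h10 : (m + 2) * ((m + 2) * ν - 1) ≤ 1007 / 100000 * (m + 1) ^ 2 := by
    have k1 : m * ((m + 2) * ν) ≤ 5 * (m + 2) := by nlinarith
    have k2 : (m + 2) * ν ≤ 5025 / 1000 := by
      by_contra hc
      push Not at hc
      nlinarith
    nlinarith
  have h11 : (m + 2) ^ 2 ≤ 1006 / 1000 * (m + 1) ^ 2 := by nlinarith
  have h12 : (m + 1) ^ 2 * fro (De μ x N) ≤ (m + 1) ^ 2 * (51 / 500) ^ 2 := by
    rw [h3]
    have k1 : (m + 2) ^ 2 * O ≤ 1006 / 1000 * (m + 1) ^ 2 * (15 / 100000) :=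
      mul_le_mul h11 h9 hO0 (by positivity)
    have k2 : 0 < (m + 1) ^ 2 := by positivity
    nlinarith
  exact le_of_mul_le_mul_left h12 (by positivity)

/-- **Case A**: the mean normal law -/
theorem el_A (h : T0Data μ m x N) (hm : 400 ≤ m) (hL : LSq μ (Matrix.diagonal j) x N) {ν : ℝ}
    (hν : ∀ a, m2 μ N N a a ≤ ν) (h5 : m * ν ≤ 5) (hj : ∀ a, j a ^ 2 ≤ 127 / 25)
    (hH : hh μ (Matrix.diagonal j) x N ≤ 1 / 500) :
    953 / 1000 * √(∑ a, m1 μ N a ^ 2) ≤ 1627 / 500 * hh μ (Matrix.diagonal j) x N := by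
  have hm0 : (0 : ℝ) < m := by linarith
  have hm1 : 0 < m + 1 := by linarith
  have hf := fro_A h hm hL hν h5 hj hH
  have hh0 := h.hh_nonneg (Matrix.diagonal j)
  have hj' : ∀ b, |j b| ≤ 1127 / 500 := fun b =>
    abs_le_of_sq_le_sq ((hj b).trans (by norm_num)) (by norm_num)
  -- the trace
  have hw : ∑ a, (j a ^ 2 - 1) ^ 2 ≤ ((m + 2) * (1 / 8)) ^ 2 := by
    refine (h.w_fro hm0.le hL (by norm_num) (by norm_num) hf).trans ?_
    refine pow_le_pow_left₀ (by positivity) ?_ 2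
    refine mul_le_mul_of_nonneg_left ?_ (by linarith)
    rw [div_le_iff₀ (by norm_num)]
    linarith
  have htr := h.j_tr_sq hm0.le hL (by norm_num) hf (by positivity : 0 ≤ (m + 2) * (1 / 8)) hw
  -- the loss
  have hE : H579.Ew (51 / 500) (hh μ (Matrix.diagonal j) x N) ≤ 143 / 10000 := by
    refine (H579.Ew_mono (by norm_num) (by norm_num) hh0 hH).trans ?_
    unfold H579.Ew
    norm_num
  have hE0 : 0 ≤ H579.Ew (51 / 500) (hh μ (Matrix.diagonal j) x N) :=
    H579.Ew_nonneg (by norm_num) (by norm_num) hh0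
  have key := H579.e_law h hm0 (ρ := 1127 / 500) (L := 953 / 1000) (by norm_num) (by linarith) hj'
    (by norm_num) (fun a => ?_)
  · have e : (1 + 1127 / 500 : ℝ) = 1627 / 500 := by norm_num
    rw [e] at key
    exact key
  · refine le_trans ?_ (H579.Lw_ge h hm0 hL (by norm_num) (by norm_num) hf a)
    set E := H579.Ew (51 / 500) (hh μ (Matrix.diagonal j) x N)
    have k1 : -(1 / 401) ≤ m / (m + 1) - 1 := by
      have : m / (m + 1) - 1 = -(1 / (m + 1)) := by field_simp; ring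
      rw [this]
      have : 1 / (m + 1) ≤ 1 / 401 := one_div_le_one_div_of_le (by norm_num) (by linarith)
      linarith
    have k2 : (m - 4) / ((m + 1) * (m + 4)) ≤ 1 / 401 := by
      rw [div_le_div_iff₀ (by positivity) (by norm_num)]
      nlinarith
    have k2' : 0 ≤ (m - 4) / ((m + 1) * (m + 4)) := div_nonneg (by linarith) (by positivity)
    have k3 : -(1 / 401) ≤ (m - 4) / ((m + 1) * (m + 4)) * (j a ^ 2 - 1) := by
      nlinarith [sq_nonneg (j a), mul_nonneg k2' (sq_nonneg (j a))]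
    have k4 : |j a * ∑ b, j b| ≤ 117 / 10000 * (m + 1) := by
      refine abs_le_of_sq_le_sq ?_ (by positivity)
      rw [mul_pow]
      have k5 : (∑ b, j b) ^ 2 ≤ (51 / 500) ^ 2 * (1013 / 1000 * (m + 2)) := by
        refine htr.trans ?_
        refine mul_le_mul_of_nonneg_left ?_ (by norm_num)
        linarith
      calc j a ^ 2 * (∑ b, j b) ^ 2
          ≤ 127 / 25 * ((51 / 500) ^ 2 * (1013 / 1000 * (m + 2))) :=
            mul_le_mul (hj a) k5 (sq_nonneg _) (by norm_num)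
        _ ≤ (117 / 10000 * (m + 1)) ^ 2 := by nlinarith
    have k6 : -(117 / 10000) ≤ j a * (∑ b, j b) / (m + 1) := by
      rw [le_div_iff₀ hm1]
      have := (abs_le.1 k4).1
      linarith
    have k7 : (m + 4 + 2 * (j a ^ 2 - 1)) / (m + 1) * (2 * E) ≤ 103 / 100 * (2 * (143 / 10000)) := by
      refine mul_le_mul ?_ (by linarith) (by linarith) (by norm_num)
      rw [div_le_iff₀ hm1]
      have := hj a
      linarith
    norm_num at k1 k3 k6 k7 ⊢
    linarith

end

end Vale.Agent.P224.R2.H255
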