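import Vale.Agent.P224.R2.H627.WtR

/-!
Numeric bounds of the coefficient `m r(0)`.
-/

namespace Vale.Agent.P224.R2.H255

open Vale.Agent.P224.R2.H820 Vale.Agent.P224.R2.H627

/-- `m r(0) ≤ (2/3 + 7639/7875/m0)/√2` for `m ≥ m0` -/
theorem mr0_le {m : ℕ} {m0 : ℝ} (h0 : 18 ≤ m0) (hm : m0 ≤ m) :
    m * rM m 0 ≤ (2 / 3 + 7639 / 7875 / m0) * (70711 / 100000) := by
  have hm18 : 18 ≤ m := by
    have : (18 : ℝ) ≤ m := h0.trans hm
    exact_mod_cast this
  have h1 := rM_zero_le hm18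
  have hm0 : 0 < m0 := by linarith
  have h2 : (7639 / 7875 : ℝ) / m ≤ 7639 / 7875 / m0 :=
    div_le_div_of_nonneg_left (by norm_num) hm0 hm
  have h3 : √2 * (m * rM m 0) ≤ 2 / 3 + 7639 / 7875 / m0 := by linarith
  have h4 : (1 : ℝ) ≤ √2 * (70711 / 100000) := by
    have h5 : (100000 / 70711 : ℝ) ≤ √2 := Real.le_sqrt_of_sq_le (by norm_num)
    calc (1 : ℝ) = 100000 / 70711 * (70711 / 100000) := by norm_num
      _ ≤ _ := mul_le_mul_of_nonneg_right h5 (by norm_num)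
  have h6 : 0 ≤ m * rM m 0 := by
    have := rM_zero_ge hm18
    have h7 : (0 : ℝ) < m := lt_of_lt_of_le hm0 hm
    have h8 : 0 < √2 * (m * rM m 0) := by
      refine lt_of_lt_of_le ?_ this
      positivity
    exact (pos_of_mul_pos_right h8 (Real.sqrt_nonneg 2)).le
  calc (m : ℝ) * rM m 0 = 1 * (m * rM m 0) := by ring
    _ ≤ √2 * (70711 / 100000) * (m * rM m 0) := mul_le_mul_of_nonneg_right h4 h6
    _ = √2 * (m * rM m 0) * (70711 / 100000) := by ring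
    _ ≤ _ := mul_le_mul_of_nonneg_right h3 (by norm_num)

/-- `m r(0) ≤ 474/1000` for `m ≥ 400` -/
theorem mr0_le_400 {m : ℕ} (hm : 400 ≤ m) : m * rM m 0 ≤ 474 / 1000 := by
  have h1 : (400 : ℝ) ≤ m := by exact_mod_cast hm
  refine (mr0_le (by norm_num) h1).trans ?_
  norm_num

/-- `m r(0) ≤ 4732/10000` for `m ≥ 400` -/
theorem mr0_le_400' {m : ℕ} (hm : 400 ≤ m) : m * rM m 0 ≤ 4732 / 10000 := by
  have h1 : (400 : ℝ) ≤ m := by exact_mod_cast hm
  refine (mr0_le (by norm_num) h1).trans ?_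
  norm_num

/-- `m r(0) ≤ 4723/10000` for `m ≥ 850` -/
theorem mr0_le_850 {m : ℕ} (hm : 850 ≤ m) : m * rM m 0 ≤ 4723 / 10000 := by
  have h1 : (850 : ℝ) ≤ m := by exact_mod_cast hm
  refine (mr0_le (by norm_num) h1).trans ?_
  norm_num

end Vale.Agent.P224.R2.H255
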