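import Vale.Agent.P224.R2.H460.Cl2
import Vale.Agent.P224.R2.H662.RList2

/-!
The list of the rare bounds in the format of the columns.
-/

namespace Vale.Agent.P224.R2.H255

open Vale.Agent.P224.R2.H662 (RJ rjs)
open Vale.Agent.P224.R2.H460

/-- a rare bound of the list -/
def raB (r : RaR) : Bool :=
  rjs.any fun i => decide (r.nu ≤ i.nu) && decide ((if r.bot then 24 else r.cf) ≤ i.cf)
    && decide (r.A0 = i.A0) && decide (r.A = i.A) && decide (r.Q = i.Q) && decide (r.ε = i.e)

/-- an instance in the format of the columns; the instances with `cf ≥ 24` may be used always -/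
def toRaR (r : RJ) : RaR := ⟨r.nu, r.A0, r.A, r.Q, r.e, r.cf, decide (24 ≤ r.cf)⟩

/-- the rare bounds for the large weights: the list `rjs` in the same order -/
def risB : List RaR := rjs.map toRaR

theorem raB_toRaR {r : RJ} (hr : r ∈ rjs) : raB (toRaR r) = true := by
  unfold raB
  rw [List.any_eq_true]
  refine ⟨r, hr, ?_⟩
  simp only [toRaR, Bool.and_eq_true, decide_eq_true_eq, and_true, le_refl, true_and]
  split_ifs with h
  · exact h
  · exact le_refl _

theorem risB_ok : risB.all raB = true := by
  rw [List.all_eq_true]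
  intro r hr
  unfold risB at hr
  rw [List.mem_map] at hr
  obtain ⟨s, hs, rfl⟩ := hr
  exact raB_toRaR hs

end Vale.Agent.P224.R2.H255
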