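import Vale.Agent.P224.R2.H460.Cl5
import Vale.Agent.P224.R2.H255.CaseA
import Vale.Agent.P224.R2.H255.FroA
import Vale.Agent.P224.R2.H255.GBnd
import Vale.Agent.P224.R2.H255.RisB

/-!
The facts for the near range of the large dimensions: small weights, rare instances.
-/

namespace Vale.Agent.P224.R2.H255

open MeasureTheory Set Filter Function Real Module Vale.Agent.P224 Vale.Agent.P224.FV
open Vale.Agent.P224.SM2 Vale.Agent.P224.R2.H820 Vale.Agent.P224.R2.H728
open Vale.Agent.P224.R2.H627 Vale.Agent.P224.R2.H582 Vale.Agent.P224.R2.H470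
open Vale.Agent.P224.R2.H176 (NearData)
open Vale.Agent.P224.R2.H662 (ad qd cob RJ rjs rare_all2)
open Vale.Agent.P224.R2.H460
open scoped Topology RealInnerProductSpace ContDiff Manifold

set_option linter.unusedSectionVars false

/-- the rare bounds for the small weights -/
def risA : List RaR := [⟨1 / 80, 53 / 5, 53 / 5, 127 / 25, 0, 0, true⟩]

/-- the bound of the mean normal for the small weights -/
def elsA : List ElR := [⟨1 / 80, 0, 1 / 500, 1627 / 500, 953 / 1000, 0⟩]

section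

variable {V W M : Type*} [NormedAddCommGroup V] [InnerProductSpace ℝ V] [FiniteDimensional ℝ V]
  [NormedAddCommGroup W] [InnerProductSpace ℝ W] [FiniteDimensional ℝ W]
  [TopologicalSpace M] [ChartedSpace V M]
  [MeasurableSpace V] [BorelSpace V] [MeasurableSpace M] [BorelSpace M]
  [MeasurableSpace W] [BorelSpace W] [IsManifold 𝓘(ℝ, V) ∞ M]
  [CompactSpace M] [T2Space M]

/-- **the facts for the small weights** -/
theorem factA [Nonempty M] (hm : 400 ≤ finrank ℝ V) (hW : finrank ℝ W = finrank ℝ V + 2)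
    {F : M → W} (hF : SphImm V F) (hmin : ∀ x n, IsUnitNormal V F x n → meanCurv V F x n = 0)
    {N : M → W} {b : OrthonormalBasis (Fin (finrank ℝ W)) ℝ W} {j : Fin (finrank ℝ W) → ℝ}
    {κ : ℝ} (hd : NearData V F N b j κ) : FactA V F N b j (finrank ℝ V) risA elsA := by
  have hone : OneP (nrm (volM V F)) (finrank ℝ V) F N := oneP_nrm hW hF hmin hd.smooth hd.unit
  have hmR : (400 : ℝ) ≤ finrank ℝ V := by exact_mod_cast hm
  have hj : ∀ ν : ℝ, 0 ≤ ν → (∀ a, m2 (nrm (volM V F)) (co b N) (co b N) a a ≤ ν) →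
      finrank ℝ V * ν ≤ 5 → ∀ a, j a ^ 2 ≤ 127 / 25 := by
    intro ν h0 hν h5 a
    have h80 : ν ≤ 1 / 80 := by
      by_contra hc
      push Not at hc
      nlinarith
    refine j_le_of (p := F) (n := N) (b := b) hd.t0 hd.lsq (ν := ν) (by linarith) hν ?_ a
    nlinarith
  refine ⟨fun r hr ν h0 hν h5 => ?_, fun f hf ν h0 hν h5 _ => ?_⟩
  · simp only [risA, List.mem_singleton] at hr
    subst hr
    obtain ⟨k1, k2, k3⟩ := caseA_of hone b hd.t0 (Q := 127 / 25) (s := 2254 / 1000)
      (A0 := 53 / 5) (hj ν h0 hν h5) (by norm_num) (by norm_num) (by norm_num)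
    refine ⟨?_, ?_, ?_⟩
    · push_cast
      rw [k1]
      positivity
    · push_cast
      exact k2
    · push_cast
      exact k3
  · simp only [elsA, List.mem_singleton] at hf
    subst hf
    intro _ h2
    push_cast at h2 ⊢
    have key := el_A hd.t0 hmR hd.lsq hν h5 (hj ν h0 hν h5) (by linarith)
    rw [add_zero]
    exact key

/-- **the rare bounds of the list** -/
theorem factB_ra (hW : finrank ℝ W = finrank ℝ V + 2)
    {F : M → W} (hF : SphImm V F) (hmin : ∀ x n, IsUnitNormal V F x n → meanCurv V F x n = 0)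
    {N : M → W} {b : OrthonormalBasis (Fin (finrank ℝ W)) ℝ W} {j : Fin (finrank ℝ W) → ℝ}
    {κ : ℝ} (hd : NearData V F N b j κ) {ris : List RaR} (hris : ris.all raB = true) :
    ∀ r ∈ ris, ∀ ν : ℝ, 0 < ν → (∀ a, m2 (nrm (volM V F)) (co b N) (co b N) a a ≤ ν) →
    ν ≤ r.nu → ν ^ 3 ≤ (if r.bot then 24 else (r.cf : ℝ))
      * hh (nrm (volM V F)) (Matrix.diagonal j) (co b F) (co b N) →
    Tri V F N b j r.A0 r.ε r.A r.Q := by
  intro r hr ν h0 hν h1 h2
  have hone : OneP (nrm (volM V F)) (finrank ℝ V) F N := oneP_nrm hW hF hmin hd.smooth hd.unit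
  have hh0 := hd.t0.hh_nonneg (Matrix.diagonal j)
  have hr' := List.all_eq_true.1 hris r hr
  simp only [raB, List.any_eq_true, Bool.and_eq_true, decide_eq_true_eq] at hr'
  obtain ⟨i, hi, ⟨⟨⟨⟨c1, c2⟩, c3⟩, c4⟩, c5⟩, c6⟩ := hr'
  have h3 : ν ≤ i.nu := h1.trans (by exact_mod_cast c1)
  have h4 : (if r.bot then (24 : ℝ) else (r.cf : ℝ)) ≤ i.cf := by
    have : (((if r.bot then (24 : ℚ) else r.cf : ℚ)) : ℝ) ≤ i.cf := by exact_mod_cast c2
    refine le_trans (le_of_eq ?_) this
    split_ifs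
    · push_cast
      rfl
    · rfl
  have h5 := h2.trans (mul_le_mul_of_nonneg_right h4 hh0)
  have key := rare_all2 hi hone b hd.t0 hd.lsq h0 hν h3 h5
  rw [← c3, ← c4, ← c5, ← c6] at key
  exact key

/-- **the facts for the large weights** -/
theorem factB (hW : finrank ℝ W = finrank ℝ V + 2)
    {F : M → W} (hF : SphImm V F) (hmin : ∀ x n, IsUnitNormal V F x n → meanCurv V F x n = 0)
    {N : M → W} {b : OrthonormalBasis (Fin (finrank ℝ W)) ℝ W} {j : Fin (finrank ℝ W) → ℝ}
    {κ : ℝ} (hd : NearData V F N b j κ) {ris : List RaR} (hris : ris.all raB = true)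
    {els : List ElR}
    (hel : ∀ f ∈ els, ∀ ν : ℝ, 5 ≤ finrank ℝ V * ν →
      (∀ a, m2 (nrm (volM V F)) (co b N) (co b N) a a ≤ ν) →
      ν ≤ f.nu → ν ^ 3 ≤ 24 * hh (nrm (volM V F)) (Matrix.diagonal j) (co b F) (co b N) →
      ElF V F N b j f) : FactB V F N b j (finrank ℝ V) ris els :=
  ⟨factB_ra hW hF hmin hd hris, hel⟩

end

end Vale.Agent.P224.R2.H255
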