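import Vale.Agent.P224.R2.H925.LamX
import Vale.Agent.P224.R2.H484.AbsWb

/-!
The absolute tail for the threshold `max (193/10) (133/10 / (1 - T^2))`, all dimensions `m ≥ 400`.
-/

namespace Vale.Agent.P224.R2.H255

open MeasureTheory Set Filter Function Real Module Matrix Vale.Agent.P224
  Vale.Agent.P224.R2.H820 Vale.Agent.P224.R2.H582 Vale.Agent.P224.R2.H627
  Vale.Agent.P224.R2.H728 Vale.Agent.P224.R2.H484 Vale.Agent.P224.R2.H925
open Vale.Agent.P224.SM2 hiding ker
open scoped Topology RealInnerProductSpace ContDiff Manifold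

set_option linter.unusedSectionVars false

section

variable {V W M : Type*} [NormedAddCommGroup V] [InnerProductSpace ℝ V] [FiniteDimensional ℝ V]
  [NormedAddCommGroup W] [InnerProductSpace ℝ W] [FiniteDimensional ℝ W]
  [TopologicalSpace M] [ChartedSpace V M]
  [MeasurableSpace V] [BorelSpace V] [MeasurableSpace M] [BorelSpace M]
  [MeasurableSpace W] [BorelSpace W] [IsManifold 𝓘(ℝ, V) ∞ M]
  [CompactSpace M] [T2Space M]

/-- the absolute tail for `m ≥ 850` -/
theorem absS_850 (hm : 850 ≤ finrank ℝ V) (hW : finrank ℝ W = finrank ℝ V + 2)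
    {F : M → W} (hF : SphImm V F) (hmin : ∀ x n, IsUnitNormal V F x n → meanCurv V F x n = 0)
    {N : M → W} (hNs : ContMDiff 𝓘(ℝ, V) 𝓘(ℝ, W) ∞ N) (hN : ∀ x, IsUnitNormal V F x (N x))
    {ab : ℚ} (hab : 65 / 1000000 ≤ ab) :
    AbsTail (volM V F) (finrank ℝ V) F N
      (fun T => (1 - T ^ 2) * lamX (193 / 10) (133 / 10) T) ab := by
  have hfin : IsFiniteMeasure (volM V F) := isFiniteMeasure_volM hF
  have h1 := abs_X hW hF hmin hNs hN (m := finrank ℝ V) rfl okB_850 (by norm_num) hm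
    (by push_cast; positivity) (by norm_num)
  have e1 : (((193 / 10 : ℚ)) : ℝ) = 193 / 10 := by norm_num
  have e2 : (((133 / 10 : ℚ)) : ℝ) = 133 / 10 := by norm_num
  rw [e1, e2] at h1
  exact absTail_mono h1 (by exact_mod_cast hab)

/-- the absolute tail for `m ≥ 400` -/
theorem absS (hm : 400 ≤ finrank ℝ V) (hW : finrank ℝ W = finrank ℝ V + 2)
    {F : M → W} (hF : SphImm V F) (hmin : ∀ x n, IsUnitNormal V F x n → meanCurv V F x n = 0)
    {N : M → W} (hNs : ContMDiff 𝓘(ℝ, V) 𝓘(ℝ, W) ∞ N) (hN : ∀ x, IsUnitNormal V F x (N x))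
    {ab : ℚ} (hab : 65 / 1000000 ≤ ab) :
    AbsTail (volM V F) (finrank ℝ V) F N
      (fun T => (1 - T ^ 2) * lamX (193 / 10) (133 / 10) T) ab := by
  have hfin : IsFiniteMeasure (volM V F) := isFiniteMeasure_volM hF
  rcases le_total 850 (finrank ℝ V) with h8 | h8
  · exact absS_850 h8 hW hF hmin hNs hN hab
  · have h1 := abs_X hW hF hmin hNs hN (m := finrank ℝ V) rfl okB_400_850 (by norm_num) hm
      (inv_blk (by omega) h8) (by norm_num)
    have e1 : (((193 / 10 : ℚ)) : ℝ) = 193 / 10 := by norm_num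
    have e2 : (((133 / 10 : ℚ)) : ℝ) = 133 / 10 := by norm_num
    rw [e1, e2] at h1
    refine absTail_mono h1 ?_
    have h2 : ((60 / 1000000 : ℚ) : ℝ) ≤ ((65 / 1000000 : ℚ) : ℝ) := by norm_num
    exact h2.trans (by exact_mod_cast hab)

end

end Vale.Agent.P224.R2.H255
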