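import Vale.Agent.P224.R2.H627.FraR
import Vale.Agent.P224.R2.H627.Pkd
import Vale.Agent.P224.R2.H925.LamX

/-!
The threshold function `max (193/10) (133/10 / (1 - T^2))`: conditions of the law for `m ≥ 400`.
-/

namespace Vale.Agent.P224.R2.H255

open MeasureTheory Set Filter Function Real Vale.Agent.P224.SM2 Vale.Agent.P224.R2.H820
open Vale.Agent.P224.R2.H582 Vale.Agent.P224.R2.H925 Vale.Agent.P224.R2.H627
open scoped Topology

/-- the conditions of the law for `m ≥ 400` -/
theorem fraS {m : ℕ} (hm : 400 ≤ m) : Fra m (lamX (193 / 10) (133 / 10)) (beR m) (1 / 2) := by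
  have hmR : (400 : ℝ) ≤ m := by exact_mod_cast hm
  refine fra_R (by omega) pk_d ?_ (fun T hT => ?_) (by norm_num)
  · rw [div_le_div_iff₀ (by linarith) (by norm_num)]
    linarith
  · have hk : 0 < 1 - T ^ 2 := by nlinarith [hT.1, hT.2]
    rw [lamX_mul hT]
    rcases le_total (133 / 10 / (1 - T ^ 2)) (193 / 10) with h | h
    · rw [max_eq_left h]
      left
      norm_num
    · rw [max_eq_right h, mul_div_cancel₀ _ hk.ne']
      right
      exact le_rfl

/-- the threshold is at most `193/10` below `2/25` -/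
theorem lamS : ∀ T ∈ Ioo (0 : ℝ) (2 / 25), (1 - T ^ 2) * lamX (193 / 10) (133 / 10) T ≤ 193 / 10 :=
  fun T hT => le_of_eq (lamX_half ⟨hT.1, by linarith [hT.2]⟩ (by norm_num) (by norm_num))

end Vale.Agent.P224.R2.H255
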